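import Vale.Agent.P331.H352.Det

/-!
# The deterministic rule with cores

`BB j ω z H X` : the set `X` of test elements is dangerous for the target `z` at the level `j`;
`core j ω z H X` : the core of `X` at the level `j` (largest subset all of whose elements are
declared relevant).  The target `z` forbids `X` if for some `1 ≤ j ≤ n` the set `X` is its own core
at the level `j`, is dangerous at the level `j`, and its core at the level `j - 1` is not dangerous
at the level `j - 1`.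
-/

set_option autoImplicit false
set_option linter.unusedSectionVars false

namespace Vale.Agent.P331.H352

open Finset Vale.Agent.P331 Vale.Agent.P331.H819 Vale.Agent.P331.H489
open scoped Classical ENNReal

section

variable {E L : Type} [Fintype E] [Fintype L] [DecidableEq L]

/-- Data of the rule with cores. -/
structure Cores (E L : Type) [Fintype E] [Fintype L] where
  w : L → ℝ
  w0 : ∀ l, 0 ≤ w l
  w1 : ∑ l, w l = 1
  v : L
  n : ℕ
  BB : ℕ → (E → L) → E → Set E → Finset E → Prop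
  core : ℕ → (E → L) → E → Set E → Finset E → Finset E

variable (D : Cores E L) (M : Matroid E)

/-- `BAD_j (z, X)` -/
def Cores.bad (j : ℕ) (ω : E → L) (z : E) (H : Set E) (X : Finset E) : Prop :=
  D.core j ω z H X = X ∧ D.BB j ω z H X ∧ ¬ D.BB (j - 1) ω z H (D.core (j - 1) ω z H X)

/-- the frame -/
def Cores.frame : Frame E L where
  w := D.w
  w0 := D.w0
  w1 := D.w1
  v := D.v
  adm := fun ω z H => ¬ D.BB 0 ω z H ∅
  forb := fun ω z H K => ∃ j, 1 ≤ j ∧ j ≤ D.n ∧ D.bad j ω z H K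

/-- the event `Ev_j (b, z)` -/
def Cores.Ev (lt : E → E → Prop) (j : ℕ) (b z : E) (ω : E → L) : Prop :=
  ω b = D.v ∧ ω z = D.v ∧ ∃ X : Finset E, b ∈ X ∧ (∀ e ∈ X, ω e = D.v ∧ lt z e) ∧
    D.bad j ω z (hs D.v ω lt z) X

/-- hypotheses on the states and cores -/
structure Cores.Ok (lt : E → E → Prop) : Prop where
  sub : ∀ (j : ℕ) (ω : E → L) (z : E) (X : Finset E), (∀ e ∈ X, ω e = D.v ∧ lt z e) →
    D.core j ω z (hs D.v ω lt z) X ⊆ X
  idem : ∀ (j : ℕ) (ω : E → L) (z : E) (X : Finset E), (∀ e ∈ X, ω e = D.v ∧ lt z e) →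
    D.core j ω z (hs D.v ω lt z) (D.core j ω z (hs D.v ω lt z) X) =
      D.core j ω z (hs D.v ω lt z) X
  /-- a minimal cover of the target -/
  top : ∀ (ω : E → L) (z : E) (K : Finset E), (∀ e ∈ K, ω e = D.v ∧ lt z e) →
    z ∈ M.closure (K : Set E) → (∀ K' ⊂ K, z ∉ M.closure (K' : Set E)) →
    D.BB D.n ω z (hs D.v ω lt z) K ∧ D.core D.n ω z (hs D.v ω lt z) K = K
  zero : ∀ (ω : E → L) (z : E) (K : Finset E), (∀ e ∈ K, ω e = D.v ∧ lt z e) →
    D.BB 0 ω z (hs D.v ω lt z) K → D.BB 0 ω z (hs D.v ω lt z) ∅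
  free : ∀ (j : ℕ) (ω : E → L) (z : E), z ∉ M.closure {e | lt z e} → ∀ K : Finset E,
    (∀ e ∈ K, ω e = D.v ∧ lt z e) → ¬ D.BB j ω z (hs D.v ω lt z) K

variable {D M}

/-- descent along the cores -/
theorem descend {lt : E → E → Prop} (h : D.Ok M lt) {ω : E → L} {z : E} :
    ∀ j ≤ D.n, ∀ X : Finset E, (∀ e ∈ X, ω e = D.v ∧ lt z e) →
      D.core j ω z (hs D.v ω lt z) X = X → D.BB j ω z (hs D.v ω lt z) X →
      (∀ K' ⊆ X, ∀ i, 1 ≤ i → i ≤ D.n → ¬ D.bad i ω z (hs D.v ω lt z) K') →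
      D.BB 0 ω z (hs D.v ω lt z) ∅
  | 0, _, X, hX, _, hB, _ => h.zero ω z X hX hB
  | j + 1, hj, X, hX, hc, hB, hbad => by
    have h1 := hbad X subset_rfl (j + 1) (by omega) hj
    have h2 : D.BB j ω z (hs D.v ω lt z) (D.core j ω z (hs D.v ω lt z) X) := by
      by_contra hn
      exact h1 ⟨hc, hB, by simpa using hn⟩
    have hs := h.sub j ω z X hX
    exact descend h j (by omega) _ (fun e he => hX e (hs he)) (h.idem j ω z X hX) h2
      fun K' hK' => hbad K' (hK'.trans hs)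

theorem Cores.Ok.frame {lt : E → E → Prop} (h : D.Ok M lt) : D.frame.Ok M lt where
  cap := by
    intro ω z K hadm hK hcl
    obtain ⟨X, hX, h1, h2⟩ := exists_min (P := fun X : Finset E => z ∈ M.closure (X : Set E)) K hcl
    have hX' : ∀ e ∈ X, ω e = D.v ∧ lt z e := fun e he => hK e (hX he)
    obtain ⟨hB, hc⟩ := h.top ω z X hX' h1 h2
    by_contra hno
    push Not at hno
    refine hadm (descend h D.n le_rfl X hX' hc hB fun K' hK' i hi hin hbad => ?_)
    exact hno K' (hK'.trans hX) ⟨i, hi, hin, hbad⟩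
  free := by
    intro ω z hz
    refine ⟨h.free 0 ω z hz ∅ (fun e he => absurd he (notMem_empty e)), fun K hK => ?_⟩
    rintro ⟨j, -, -, hbad⟩
    exact h.free j ω z hz K hK hbad.2.1

theorem blame_ev {lt : E → E → Prop} {b z : E} {ω : E → L} (hb : Blame D.frame lt b z ω) :
    ∃ j ∈ Icc 1 D.n, D.Ev lt j b z ω := by
  obtain ⟨h1, h2, -, K, h4, h5, ⟨j, hj, hjn, hbad⟩, -⟩ := hb
  exact ⟨j, mem_Icc.2 ⟨hj, hjn⟩, h1, h2, K, h4, h5, hbad⟩

/-- **The competitive rule from the events `Ev_j (b, z)`.** -/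
theorem competitive_of_ev (hM : M.E = Set.univ)
    (hD : ∀ lt : E → E → Prop, IsStrictTotalOrder E lt → D.Ok M lt) {c : ℝ}
    (h : ∀ lt : E → E → Prop, IsStrictTotalOrder E lt → ∀ b, b ∉ M.closure {f | lt b f} →
      ∑ z ∈ univ.erase b, ∑ j ∈ Icc 1 D.n, EX (fun _ => D.w)
        (fun ω : E → L => if D.Ev lt j b z ω then 1 else 0) ≤ D.w D.v - c) :
    (D.frame.data M).rule.IsCompetitive (ENNReal.ofReal c) := by
  refine competitive_of_blame hM (fun lt hlt => (hD lt hlt).frame) fun lt hlt b hb => ?_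
  refine le_trans (sum_le_sum fun z _ => ?_) (h lt hlt b hb)
  rw [← EX_sum]
  refine EX_mono (fun _ l => D.w0 l) fun ω => ?_
  by_cases hbl : Blame D.frame lt b z ω
  · rw [if_pos hbl]
    obtain ⟨j, hj, h1⟩ := blame_ev hbl
    have h3 := single_le_sum (f := fun j => if D.Ev lt j b z ω then (1 : ℝ) else 0)
      (fun _ _ => ind0) hj
    rwa [if_pos h1] at h3
  · rw [if_neg hbl]
    exact sum_nonneg fun _ _ => ind0

end

end Vale.Agent.P331.H352
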