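import Vale.Agent.P331.H489.Ex
import Vale.Agent.P331.H819.Static

/-!
# Deterministic frame of a target-wise rule

Every target `z` forbids sets `K` of heavier test elements; a forbidden set is computed from the
labels, from the set `H` of the heavier sample elements and from `K`.  If the element `b` of the
greedy basis is not safe, then it lies in a minimal forbidden set of some admitted target.
-/

set_option autoImplicit false
set_option linter.unusedSectionVars false

namespace Vale.Agent.P331.H352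

open Finset Vale.Agent.P331 Vale.Agent.P331.H819 Vale.Agent.P331.H489
open scoped Classical ENNReal

section

variable {E L : Type} [Fintype E] [Fintype L] [DecidableEq L]

/-- Data of a target-wise rule: weights of the labels, the label `v` of the test elements, admitted
targets, forbidden sets. `H` is the set of heavier elements which are not test elements. -/
structure Frame (E L : Type) [Fintype E] [Fintype L] where
  w : L → ℝ
  w0 : ∀ l, 0 ≤ w l
  w1 : ∑ l, w l = 1
  v : L
  adm : (E → L) → E → Set E → Prop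
  forb : (E → L) → E → Set E → Finset E → Prop

variable (D : Frame E L) (M : Matroid E)

/-- the heavier sample elements -/
def hs (v : L) (ω : E → L) (lt : E → E → Prop) (z : E) : Set E := {e | lt z e ∧ ω e ≠ v}

/-- the legal sets -/
def Leg (ω : E → L) (lt : E → E → Prop) (B : Set E) : Prop :=
  M.Indep B ∧ ∀ z ∈ B, D.adm ω z (hs D.v ω lt z) ∧
    ∀ K : Finset E, (∀ e ∈ K, e ∈ B ∧ lt z e) → ¬ D.forb ω z (hs D.v ω lt z) K

theorem hs_congr {v : L} {ω : E → L} {lt lt' : E → E → Prop} {z : E}
    (h : ∀ e, ω e ≠ v → (lt z e ↔ lt' z e)) : hs v ω lt z = hs v ω lt' z := by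
  ext e
  constructor
  · rintro ⟨h1, h2⟩
    exact ⟨(h e h2).1 h1, h2⟩
  · rintro ⟨h1, h2⟩
    exact ⟨(h e h2).2 h1, h2⟩

/-- The static rule of the frame. -/
noncomputable def Frame.data : Data M where
  Sd := E → L
  w := fun ω => ENNReal.ofReal (∏ e, D.w (ω e))
  w_sum := by
    rw [← ENNReal.ofReal_sum_of_nonneg fun ω _ => prod_nonneg fun e _ => D.w0 _]
    have h := EX_one (fun _ : E => D.w) (fun _ => D.w1) 1
    unfold EX at h
    simp only [mul_one] at h
    rw [h, ENNReal.ofReal_one]
  T := fun ω e => ω e = D.v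
  Leg := fun ω lt B => Leg D M ω lt B
  empty := fun ω lt => ⟨M.empty_indep, fun z hz => absurd hz (Set.notMem_empty z)⟩
  loc := by
    intro ω lt lt' B _ h hB
    refine ⟨hB.1, fun z hz => ?_⟩
    obtain ⟨h1, h2⟩ := hB.2 z hz
    have e1 : hs D.v ω lt z = hs D.v ω lt' z :=
      hs_congr fun e he => h z e (Or.inl hz) (Or.inr he)
    rw [← e1]
    refine ⟨h1, fun K hK => h2 K fun e he => ⟨(hK e he).1, ?_⟩⟩
    exact (h z e (Or.inl hz) (Or.inl (hK e he).1)).2 (hK e he).2
  indep := fun ω lt _ B _ hB => hB.1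

/-- `b` is blamed by the target `z` : it lies in a minimal forbidden set of heavier test elements -/
def Blame (lt : E → E → Prop) (b z : E) (ω : E → L) : Prop :=
  ω b = D.v ∧ ω z = D.v ∧ D.adm ω z (hs D.v ω lt z) ∧ ∃ K : Finset E, b ∈ K ∧
    (∀ e ∈ K, ω e = D.v ∧ lt z e) ∧ D.forb ω z (hs D.v ω lt z) K ∧
    ∀ K' ⊂ K, ¬ D.forb ω z (hs D.v ω lt z) K'

/-- The hypotheses on the frame : an admitted target covered by heavier test elements has a
forbidden set; a target which is not covered by all heavier elements is admitted and forbids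
nothing. -/
structure Frame.Ok (lt : E → E → Prop) : Prop where
  cap : ∀ (ω : E → L) (z : E) (K : Finset E), D.adm ω z (hs D.v ω lt z) →
    (∀ e ∈ K, ω e = D.v ∧ lt z e) → z ∈ M.closure (K : Set E) →
    ∃ K' ⊆ K, D.forb ω z (hs D.v ω lt z) K'
  free : ∀ (ω : E → L) (z : E), z ∉ M.closure {e | lt z e} → D.adm ω z (hs D.v ω lt z) ∧
    ∀ K : Finset E, (∀ e ∈ K, ω e = D.v ∧ lt z e) → ¬ D.forb ω z (hs D.v ω lt z) K

variable {D M}

theorem exists_min {P : Finset E → Prop} (U : Finset E) (hU : P U) :
    ∃ X ⊆ U, P X ∧ ∀ X' ⊂ X, ¬ P X' := by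
  induction U using Finset.strongInduction with
  | H U ih =>
    by_cases h : ∃ X' ⊂ U, P X'
    · obtain ⟨X', hX', hP⟩ := h
      obtain ⟨X, hX, h1, h2⟩ := ih X' hX' hP
      exact ⟨X, hX.trans hX'.subset, h1, h2⟩
    · push Not at h
      exact ⟨U, subset_rfl, hU, h⟩

/-- a forbidden set in `insert b B`, `B` legal, gives a blame -/
theorem blame_of {ω : E → L} {lt : E → E → Prop} {b z : E} {B : Set E}
    (hB : ∀ f ∈ B, f ≠ b ∧ ω f = D.v) (hLB : Leg D M ω lt B) (hbT : ω b = D.v) (hz : z ∈ B)
    {K : Finset E} (hK : ∀ e ∈ K, e ∈ insert b B ∧ lt z e)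
    (hf : D.forb ω z (hs D.v ω lt z) K) : Blame D lt b z ω := by
  obtain ⟨X, hX, h1, h2⟩ := exists_min (P := D.forb ω z (hs D.v ω lt z)) K hf
  refine ⟨hbT, (hB z hz).2, (hLB.2 z hz).1, X, ?_, ?_, h1, h2⟩
  · by_contra hbX
    refine (hLB.2 z hz).2 X (fun e he => ⟨?_, (hK e (hX he)).2⟩) h1
    rcases (hK e (hX he)).1 with rfl | h
    · exact absurd he hbX
    · exact h
  · intro e he
    refine ⟨?_, (hK e (hX he)).2⟩
    rcases (hK e (hX he)).1 with rfl | h
    · exact hbT
    · exact (hB e h).2

/-- **If the element `b` of the greedy basis is not safe, it is blamed by some target.** -/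
theorem unsafe_blame (hM : M.E = Set.univ) {lt : E → E → Prop} (hlt : IsStrictTotalOrder E lt)
    (hD : D.Ok M lt) {b : E} (hb : b ∉ M.closure {f | lt b f}) {ω : E → L} (hbT : ω b = D.v)
    (hn : ¬ (D.data M).Safe ω lt b) : ∃ z ∈ univ.erase b, Blame D lt b z ω := by
  unfold Data.Safe at hn
  push Not at hn
  obtain ⟨B, hB, hLB, hnot⟩ := hn
  have hB' : ∀ f ∈ B, f ≠ b ∧ ω f = D.v := hB
  have hLB' : Leg D M ω lt B := hLB
  have hn' : ¬ Leg D M ω lt (insert b B) := hnot
  have hins : ∀ f ∈ insert b B, ω f = D.v := by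
    rintro f (rfl | hf)
    · exact hbT
    · exact (hB' f hf).2
  by_cases hdep : M.Indep (insert b B)
  · unfold Leg at hn'
    push Not at hn'
    obtain ⟨z, hz, hz2⟩ := hn' hdep
    rcases hz with rfl | hz
    · exfalso
      obtain ⟨h1, h2⟩ := hD.free ω z hb
      obtain ⟨K, hK, hf⟩ := hz2 h1
      exact h2 K (fun e he => ⟨hins e (hK e he).1, (hK e he).2⟩) hf
    · obtain ⟨K, hK, hf⟩ := hz2 (hLB'.2 z hz).1
      exact ⟨z, mem_erase.2 ⟨(hB' z hz).1, mem_univ z⟩, blame_of hB' hLB' hbT hz hK hf⟩
  · have hdep' : M.Dep (insert b B) :=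
      (Matroid.not_indep_iff (by rw [hM]; exact Set.subset_univ _)).1 hdep
    obtain ⟨C, hCs, hC⟩ := hdep'.exists_isCircuit_subset
    obtain ⟨z, hzC, hz⟩ : ∃ z ∈ C, ∀ e ∈ C, e ≠ z → lt z e := by
      have hwf : WellFounded lt := Finite.wellFounded_of_trans_of_irrefl lt
      obtain ⟨z, hzC, hz⟩ := hwf.has_min C hC.nonempty
      refine ⟨z, hzC, fun e he hne => ?_⟩
      rcases trichotomous_of lt z e with h | h | h
      · exact h
      · exact absurd h.symm hne
      · exact absurd h (hz e he)
    have hcl : z ∈ M.closure (C \ {z}) := hC.mem_closure_sdiff_singleton_of_mem hzC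
    have hzb : z ≠ b := by
      rintro rfl
      refine hb (M.closure_subset_closure ?_ hcl)
      rintro e ⟨he, hne⟩
      exact hz e he hne
    have hzB : z ∈ B := by
      rcases hCs hzC with h | h
      · exact absurd h hzb
      · exact h
    set X : Finset E := (C \ {z}).toFinset with hXdef
    have hXm : ∀ e, e ∈ X ↔ e ∈ C ∧ e ≠ z := by
      intro e
      rw [hXdef, Set.mem_toFinset]
      exact Iff.rfl
    have hXlab : ∀ e ∈ X, ω e = D.v ∧ lt z e := fun e he =>
      ⟨hins e (hCs ((hXm e).1 he).1), hz e ((hXm e).1 he).1 ((hXm e).1 he).2⟩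
    have hcX : z ∈ M.closure (X : Set E) := by
      rw [hXdef, Set.coe_toFinset]
      exact hcl
    obtain ⟨K', hK', hf⟩ := hD.cap ω z X (hLB'.2 z hzB).1 hXlab hcX
    refine ⟨z, mem_erase.2 ⟨hzb, mem_univ z⟩, blame_of hB' hLB' hbT hzB (K := K') ?_ hf⟩
    intro e he
    exact ⟨hCs ((hXm e).1 (hK' he)).1, (hXlab e (hK' he)).2⟩

theorem ind0 {P : Prop} [Decidable P] : (0 : ℝ) ≤ if P then 1 else 0 := by
  split_ifs <;> norm_num

/-- `b` is a safe test element -/
def Good (D : Frame E L) (M : Matroid E) (lt : E → E → Prop) (b : E) (ω : E → L) : Prop :=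
  (D.data M).T ω b ∧ (D.data M).Safe ω lt b

/-- splitting the probability of the label of `b` -/
theorem good_ge (hM : M.E = Set.univ) {lt : E → E → Prop} (hlt : IsStrictTotalOrder E lt)
    (hD : D.Ok M lt) {b : E} (hb : b ∉ M.closure {f | lt b f}) :
    D.w D.v ≤ EX (fun _ => D.w) (fun ω : E → L => if Good D M lt b ω then 1 else 0) +
      ∑ z ∈ univ.erase b, EX (fun _ => D.w) (fun ω : E → L => if Blame D lt b z ω then 1 else 0) := by
  have hw : ∀ (e : E) (l : L), 0 ≤ D.w l := fun _ l => D.w0 l
  have h1 : EX (fun _ => D.w) (fun ω : E → L => if ω b = D.v then (1 : ℝ) else 0) = D.w D.v := by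
    rw [EX_cond b D.v D.v, EX_one, mul_one]
    intro e
    by_cases he : e = b
    · subst he
      rw [Function.update_self]
      simp
    · rw [Function.update_of_ne he]
      exact D.w1
  have h2 : ∀ ω : E → L, (if ω b = D.v then (1 : ℝ) else 0) ≤
      (if Good D M lt b ω then 1 else 0) +
        ∑ z ∈ univ.erase b, if Blame D lt b z ω then 1 else 0 := by
    intro ω
    have s0 : (0 : ℝ) ≤ ∑ z ∈ univ.erase b, if Blame D lt b z ω then (1 : ℝ) else 0 :=
      sum_nonneg fun _ _ => ind0
    have s1 : (0 : ℝ) ≤ if Good D M lt b ω then 1 else 0 := ind0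
    by_cases hbT : ω b = D.v
    · rw [if_pos hbT]
      by_cases hsafe : (D.data M).Safe ω lt b
      · have : (if Good D M lt b ω then (1 : ℝ) else 0) = 1 := if_pos ⟨hbT, hsafe⟩
        rw [this]
        linarith
      · obtain ⟨z, hz, hbl⟩ := unsafe_blame hM hlt hD hb hbT hsafe
        have : (1 : ℝ) ≤ ∑ z ∈ univ.erase b, if Blame D lt b z ω then (1 : ℝ) else 0 := by
          have h3 := single_le_sum (f := fun z => if Blame D lt b z ω then (1 : ℝ) else 0)
            (fun _ _ => ind0) hz
          rwa [if_pos hbl] at h3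
        linarith
    · rw [if_neg hbT]
      linarith
  have h3 := EX_mono (w := fun _ : E => D.w) hw h2
  rwa [h1, EX_add, EX_sum] at h3

/-- from the real valued bound to the competitive rule -/
theorem comp_of_good (hM : M.E = Set.univ) {c : ℝ}
    (h : ∀ lt : E → E → Prop, IsStrictTotalOrder E lt → ∀ b, b ∉ M.closure {f | lt b f} →
      c ≤ EX (fun _ => D.w) (fun ω : E → L => if Good D M lt b ω then 1 else 0)) :
    (D.data M).rule.IsCompetitive (ENNReal.ofReal c) := by
  refine Data.competitive _ hM fun lt hlt b hb => ?_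
  refine (ENNReal.ofReal_le_ofReal (h lt hlt b hb)).trans (le_of_eq ?_)
  have h1 : ENNReal.ofReal (EX (fun _ => D.w) (fun ω : E → L =>
      if Good D M lt b ω then 1 else 0)) =
      ∑ ω : E → L, ENNReal.ofReal (∏ e, D.w (ω e)) *
        (if Good D M lt b ω then 1 else 0) := by
    unfold EX
    dsimp only
    rw [ENNReal.ofReal_sum_of_nonneg fun ω _ =>
      mul_nonneg (prod_nonneg fun e _ => D.w0 _) ind0]
    refine Finset.sum_congr rfl fun ω _ => ?_
    by_cases hP : Good D M lt b ω
    · rw [if_pos hP, if_pos hP, mul_one, mul_one]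
    · rw [if_neg hP, if_neg hP, mul_zero, mul_zero, ENNReal.ofReal_zero]
  rw [h1]
  refine Finset.sum_congr rfl fun ω _ => ?_
  by_cases hP : Good D M lt b ω
  · rw [if_pos hP]
    exact congrArg _ (if_pos hP).symm
  · rw [if_neg hP]
    exact congrArg _ (if_neg hP).symm

/-- **Deterministic frame.** If the total blame of every element of the greedy basis is at most
half of the probability of the test label, the rule is competitive with that ratio. -/
theorem competitive_of_blame (hM : M.E = Set.univ)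
    (hD : ∀ lt : E → E → Prop, IsStrictTotalOrder E lt → D.Ok M lt) {c : ℝ}
    (h : ∀ lt : E → E → Prop, IsStrictTotalOrder E lt → ∀ b, b ∉ M.closure {f | lt b f} →
      ∑ z ∈ univ.erase b, EX (fun _ => D.w) (fun ω : E → L => if Blame D lt b z ω then 1 else 0) ≤
        D.w D.v - c) :
    (D.data M).rule.IsCompetitive (ENNReal.ofReal c) := by
  refine comp_of_good hM fun lt hlt b hb => ?_
  have h1 := good_ge hM hlt (hD lt hlt) hb
  have h2 := h lt hlt b hb
  linarith

end

end Vale.Agent.P331.H352
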