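import Vale.Agent.P331.H352.Vio
import Vale.Agent.P331.H250.Ker

/-!
# The concrete rule: thinnings of the sample

`miss θ U R A` : probability that the thinning of `R` with rate `θ` does not complete `A` to a
member of `U`.
`good` : the small set `Y` together with the thinning `G` is completed with high probability.
`ff` : probability (over the thinning `G` of the sample) that no small subset of `X` is good.
`vio1` : `X` violates the target.
-/

set_option autoImplicit false
set_option linter.unusedSectionVars false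

namespace Vale.Agent.P331.H352

open Finset Vale.Agent.P331 Vale.Agent.P331.H819 Vale.Agent.P331.H489 Vale.Agent.P331.H250
open scoped Classical ENNReal

section Defs

variable {E : Type} [Fintype E] [DecidableEq E]

/-- probability that the thinning `N` of `R` does not complete `A` to a member of `U` -/
noncomputable def miss (θ : ℝ) (U : Finset E → Prop) (R A : Finset E) : ℝ :=
  TH (fun _ => θ) R fun N => if U (A ∪ N) then 0 else 1

/-- `Y` is good for `G` -/
def good (θ : ℝ) (U : Finset E → Prop) (k : ℕ) (β : ℝ) (S G Y : Finset E) : Prop :=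
  Y.card ≤ k ∧ miss θ U (S \ G) (Y ∪ G) ≤ β / (Y.card + 1)

/-- probability that no subset of `X` is good -/
noncomputable def ff (γ θ : ℝ) (U : Finset E → Prop) (k : ℕ) (β : ℝ) (S X : Finset E) : ℝ :=
  TH (fun _ => γ) S fun G => if ∃ Y ⊆ X, good θ U k β S G Y then 0 else 1

/-- `X` violates the target -/
def vio1 (γ θ : ℝ) (U : Finset E → Prop) (k : ℕ) (β : ℝ) (Z : ℕ) (τ : ℝ) (S X : Finset E) :
    Prop :=
  X.card ≤ Z ∧ ff γ θ U k β S X ≤ τ / (X.card + 1)

end Defs

section Lemmas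

variable {E : Type} [Fintype E] [DecidableEq E]

theorem ite01_nonneg {P : Prop} [Decidable P] : (0 : ℝ) ≤ if P then 0 else 1 := by
  split_ifs <;> norm_num

theorem miss_nonneg {θ : ℝ} (h0 : 0 ≤ θ) (h1 : θ ≤ 1) (U : Finset E → Prop) (R A : Finset E) :
    0 ≤ miss θ U R A :=
  TH_nonneg (fun _ => h0) (fun _ => h1) R fun _ _ => ite01_nonneg

theorem miss_of_mem {θ : ℝ} {U : Finset E → Prop} (hU : ∀ A B, A ⊆ B → U A → U B)
    {R A : Finset E} (hA : U A) : miss θ U R A = 0 := by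
  unfold miss
  rw [TH_congr (q := fun _ => θ) (fun _ _ => rfl) (g := fun _ => (0 : ℝ))
    fun N _ => if_pos (hU A _ subset_union_left hA), TH_const]

theorem miss_of_not {θ : ℝ} {U : Finset E → Prop} {R A : Finset E}
    (hA : ∀ N ⊆ R, ¬ U (A ∪ N)) : miss θ U R A = 1 := by
  unfold miss
  rw [TH_congr (q := fun _ => θ) (fun _ _ => rfl) (g := fun _ => (1 : ℝ))
    fun N hN => if_neg (hA N hN), TH_const]

/-- a member of the up-set violates if the parameters exceed the number of elements -/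
theorem vio1_top {γ θ : ℝ} {U : Finset E → Prop} (hU : ∀ A B, A ⊆ B → U A → U B) {k Z : ℕ}
    {β τ : ℝ} (hβ : 0 ≤ β) (hτ : 0 ≤ τ) (hk : Fintype.card E ≤ k) (hZ : Fintype.card E ≤ Z)
    {S X : Finset E} (hX : U X) : vio1 γ θ U k β Z τ S X := by
  refine ⟨(card_le_univ X).trans hZ, ?_⟩
  have h1 : ff γ θ U k β S X = 0 := by
    unfold ff
    rw [TH_congr (q := fun _ => γ) (fun _ _ => rfl) (g := fun _ => (0 : ℝ)) fun G _ => ?_,
      TH_const]
    refine if_pos ⟨X, subset_rfl, (card_le_univ X).trans hk, ?_⟩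
    rw [miss_of_mem hU (hU X _ subset_union_left hX)]
    positivity
  rw [h1]
  positivity

/-- at the level zero only the empty set may be good -/
theorem vio1_zero {γ θ : ℝ} {U : Finset E → Prop} {β τ : ℝ} (hτ : 0 ≤ τ) {Z : ℕ}
    {S X : Finset E} (h : vio1 γ θ U 0 β Z τ S X) : vio1 γ θ U 0 β Z τ S ∅ := by
  refine ⟨by simp, ?_⟩
  have h1 : ff γ θ U 0 β S ∅ = ff γ θ U 0 β S X := by
    unfold ff
    refine TH_congr (fun _ _ => rfl) fun G _ => ?_
    refine if_congr ⟨?_, ?_⟩ rfl rfl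
    · rintro ⟨Y, hY, h2⟩
      exact ⟨Y, hY.trans (empty_subset X), h2⟩
    · rintro ⟨Y, hY, h2⟩
      refine ⟨Y, ?_, h2⟩
      rw [card_eq_zero.1 (Nat.le_zero.1 h2.1)]
  rw [h1]
  refine h.2.trans ?_
  rw [card_empty]
  have h2 : (0 : ℝ) ≤ (X.card : ℝ) := Nat.cast_nonneg _
  rw [div_le_div_iff₀ (by positivity) (by norm_num)]
  push_cast
  nlinarith

/-- a target which is never covered is never violated -/
theorem vio1_free {γ θ : ℝ} {U : Finset E → Prop} {k Z : ℕ} {β τ : ℝ} (hβ0 : 0 ≤ β)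
    (hβ : β < 1) (hτ0 : 0 ≤ τ) (hτ : τ < 1) {S X : Finset E} (h : ∀ A ⊆ X ∪ S, ¬ U A) :
    ¬ vio1 γ θ U k β Z τ S X := by
  rintro ⟨-, h1⟩
  have h2 : ff γ θ U k β S X = 1 := by
    unfold ff
    rw [TH_congr (q := fun _ => γ) (fun _ _ => rfl) (g := fun _ => (1 : ℝ)) fun G hG => ?_,
      TH_const]
    refine if_neg ?_
    rintro ⟨Y, hY, -, h3⟩
    rw [miss_of_not fun N hN => ?_] at h3
    · have h4 : (0 : ℝ) ≤ (Y.card : ℝ) := Nat.cast_nonneg _
      have h5 : β / (Y.card + 1) ≤ β := div_le_self hβ0 (by linarith)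
      linarith
    · refine h _ ?_
      intro e he
      rw [mem_union, mem_union] at he
      rw [mem_union]
      rcases he with (he | he) | he
      · exact Or.inl (hY he)
      · exact Or.inr (hG he)
      · exact Or.inr (sdiff_subset (hN he))
  rw [h2] at h1
  have h4 : (0 : ℝ) ≤ (X.card : ℝ) := Nat.cast_nonneg _
  have h5 : τ / (X.card + 1) ≤ τ := div_le_self hτ0 (by linarith)
  linarith

/-! ## Restriction to the relevant elements -/

/-- expectation at a point mass -/
theorem EX_dirac {L : Type*} [Fintype L] [DecidableEq L] (g : E → L) (F : (E → L) → ℝ) :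
    EX (fun e c => if c = g e then (1 : ℝ) else 0) F = F g := by
  unfold EX
  rw [sum_eq_single g]
  · simp
  · intro ω _ hω
    obtain ⟨e, he⟩ := Function.ne_iff.1 hω
    rw [prod_eq_zero (mem_univ e) (if_neg he), zero_mul]
  · intro h
    exact absurd (mem_univ _) h

/-- a thinning seen through `Q` -/
theorem TH_inter (r : E → ℝ) (S Q : Finset E) (f : Finset E → ℝ) :
    TH r S (fun G => f (G ∩ Q)) = TH r (S ∩ Q) f := by
  unfold TH
  let k : E → Bool → Bool → ℝ := fun e b c =>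
    if c = (if e ∈ Q then b else false) then 1 else 0
  have h1 : EX (bw r S) (fun b => f (tset b ∩ Q)) = EX (bw r S) (KR k fun c => f (tset c)) := by
    refine EX_congr (fun _ _ => rfl) fun b => ?_
    unfold KR
    rw [EX_dirac (fun e => if e ∈ Q then b e else false) fun c => f (tset c)]
    congr 1
    ext e
    by_cases he : e ∈ Q <;> simp [mem_tset, he]
  rw [h1, EX_KR]
  refine EX_congr (fun e c => ?_) fun _ => rfl
  rw [Fintype.sum_bool]
  by_cases he : e ∈ Q <;> by_cases hs : e ∈ S <;> cases c <;> simp [bw, k, he, hs]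

/-- the up-set seen through `Q` -/
theorem miss_inter (θ : ℝ) (U : Finset E → Prop) (R A Q : Finset E) :
    miss θ (fun B => U (B ∩ Q)) R A = miss θ U (R ∩ Q) (A ∩ Q) := by
  unfold miss
  rw [← TH_inter]
  refine TH_congr (fun _ _ => rfl) fun N _ => ?_
  beta_reduce
  rw [union_inter_distrib_right]

theorem good_inter {θ : ℝ} {U : Finset E → Prop} {k : ℕ} {β : ℝ} {S G Y Q : Finset E}
    (hY : Y ⊆ Q) :
    good θ (fun B => U (B ∩ Q)) k β S G Y ↔ good θ U k β (S ∩ Q) (G ∩ Q) Y := by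
  unfold good
  rw [miss_inter]
  have h1 : (S \ G) ∩ Q = (S ∩ Q) \ (G ∩ Q) := by
    ext e
    simp only [mem_inter, mem_sdiff]
    tauto
  have h2 : (Y ∪ G) ∩ Q = Y ∪ (G ∩ Q) := by
    rw [union_inter_distrib_right, inter_eq_left.2 hY]
  rw [h1, h2]

theorem ff_inter {γ θ : ℝ} {U : Finset E → Prop} {k : ℕ} {β : ℝ} {S X Q : Finset E}
    (hX : X ⊆ Q) :
    ff γ θ (fun B => U (B ∩ Q)) k β S X = ff γ θ U k β (S ∩ Q) X := by
  unfold ff
  rw [← TH_inter]
  refine TH_congr (fun _ _ => rfl) fun G _ => ?_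
  refine if_congr ⟨?_, ?_⟩ rfl rfl
  · rintro ⟨Y, hY, h⟩
    exact ⟨Y, hY, (good_inter (hY.trans hX)).1 h⟩
  · rintro ⟨Y, hY, h⟩
    exact ⟨Y, hY, (good_inter (hY.trans hX)).2 h⟩

theorem vio1_inter {γ θ : ℝ} {U : Finset E → Prop} {k Z : ℕ} {β τ : ℝ} {S X Q : Finset E}
    (hX : X ⊆ Q) :
    vio1 γ θ (fun B => U (B ∩ Q)) k β Z τ S X ↔ vio1 γ θ U k β Z τ (S ∩ Q) X := by
  unfold vio1
  rw [ff_inter hX]

/-- only the part of `X` in `Q` matters -/
theorem ff_inter_right {γ θ : ℝ} {U : Finset E → Prop} {k : ℕ} {β : ℝ}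
    (hβ : 0 ≤ β) {S X Q : Finset E} :
    ff γ θ (fun B => U (B ∩ Q)) k β S (X ∩ Q) = ff γ θ (fun B => U (B ∩ Q)) k β S X := by
  unfold ff
  refine TH_congr (fun _ _ => rfl) fun G _ => ?_
  refine if_congr ⟨?_, ?_⟩ rfl rfl
  · rintro ⟨Y, hY, h⟩
    exact ⟨Y, hY.trans inter_subset_left, h⟩
  · rintro ⟨Y, hY, h2, h3⟩
    refine ⟨Y ∩ Q, inter_subset_inter hY subset_rfl, (card_le_card inter_subset_left).trans h2, ?_⟩
    have e1 : miss θ (fun B => U (B ∩ Q)) (S \ G) (Y ∩ Q ∪ G) =
        miss θ (fun B => U (B ∩ Q)) (S \ G) (Y ∪ G) := by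
      rw [miss_inter, miss_inter]
      congr 1
      ext e
      simp only [mem_inter, mem_union]
      tauto
    rw [e1]
    refine h3.trans ?_
    have h4 : ((Y ∩ Q).card : ℝ) ≤ (Y.card : ℝ) := by
      exact_mod_cast card_le_card inter_subset_left
    exact div_le_div_of_nonneg_left hβ (by positivity) (by linarith)

end Lemmas

/-! ## The rule -/

/-- parameters of the rule -/
structure ParB where
  p : ℝ
  γ : ℝ
  θ : ℝ
  k : ℕ → ℕ
  Z : ℕ → ℕ
  β : ℕ → ℝ
  τ : ℕ → ℝ
  n : ℕ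

/-- hypotheses on the parameters -/
structure ParB.Ok (P : ParB) (m : ℕ) : Prop where
  p0 : 0 ≤ P.p
  p1 : P.p ≤ 1
  β0 : ∀ j, 0 ≤ P.β j
  β1 : ∀ j, P.β j < 1
  τ0 : ∀ j, 0 ≤ P.τ j
  τ1 : ∀ j, P.τ j < 1
  k0 : P.k 0 = 0
  kn : m ≤ P.k P.n
  Zn : m ≤ P.Z P.n

section Rule

variable {E : Type} [Fintype E]

/-- violation at the level `j` -/
def ParB.vio (P : ParB) (U : Finset E → Prop) (j : ℕ) (S X : Finset E) : Prop :=
  vio1 P.γ P.θ U (P.k j) (P.β j) (P.Z j) (P.τ j) S X

/-- minimal violating sets without subsets violating at the previous level -/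
def ParB.bad (P : ParB) (U : Finset E → Prop) (j : ℕ) (S X : Finset E) : Prop :=
  P.vio U j S X ∧ (∀ X' ⊂ X, ¬ P.vio U j S X') ∧ ∀ X' ⊆ X, ¬ P.vio U (j - 1) S X'

/-- the finite set of a set -/
noncomputable def fs (H : Set E) : Finset E := univ.filter fun e => e ∈ H

theorem mem_fs {H : Set E} {e : E} : e ∈ fs H ↔ e ∈ H := by simp [fs]

/-- the weights of the labels `true` (test) and `false` (sample) -/
def bwt (p : ℝ) (l : Bool) : ℝ := if l then p else 1 - p

theorem bwt_nonneg {p : ℝ} (h0 : 0 ≤ p) (h1 : p ≤ 1) (l : Bool) : 0 ≤ bwt p l := by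
  unfold bwt
  split_ifs <;> linarith

theorem bwt_sum (p : ℝ) : ∑ l, bwt p l = 1 := by
  rw [Fintype.sum_bool]
  simp [bwt]

/-- the rule -/
noncomputable def ParB.rule (P : ParB) (M : Matroid E) (h0 : 0 ≤ P.p) (h1 : P.p ≤ 1) :
    Vios E Bool where
  w := bwt P.p
  w0 := bwt_nonneg h0 h1
  w1 := bwt_sum P.p
  v := true
  n := P.n
  vio := fun j _ z H X => P.vio (fun A => z ∈ M.closure (A : Set E)) j (fs H) X

theorem rule_top {P : ParB} {M : Matroid E} (hP : P.Ok (Fintype.card E)) (z : E)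
    (S K : Finset E) (hcl : z ∈ M.closure (K : Set E)) :
    P.vio (fun A => z ∈ M.closure (A : Set E)) P.n S K :=
  vio1_top (fun _ _ hAB hA => M.closure_subset_closure (coe_subset.2 hAB) hA)
    (hP.β0 _) (hP.τ0 _) hP.kn hP.Zn hcl

theorem rule_zero {P : ParB} {m : ℕ} (hP : P.Ok m) (U : Finset E → Prop)
    (S K : Finset E) (h : P.vio U 0 S K) : P.vio U 0 S ∅ := by
  unfold ParB.vio at h ⊢
  rw [hP.k0] at h ⊢
  exact vio1_zero (hP.τ0 0) h

theorem rule_free {P : ParB} {m : ℕ} (hP : P.Ok m) (U : Finset E → Prop) (j : ℕ)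
    (S K : Finset E) (h : ∀ A ⊆ K ∪ S, ¬ U A) : ¬ P.vio U j S K :=
  vio1_free (hP.β0 j) (hP.β1 j) (hP.τ0 j) (hP.τ1 j) h

theorem rule_ok {P : ParB} {M : Matroid E} (hP : P.Ok (Fintype.card E)) (lt : E → E → Prop) :
    (P.rule M hP.p0 hP.p1).Ok M lt where
  top := fun ω z K _ hcl => rule_top hP z (fs (hs true ω lt z)) K hcl
  zero := fun ω z K _ h => rule_zero hP _ (fs (hs true ω lt z)) K h
  free := by
    intro j ω z hz K hK
    refine rule_free hP _ j (fs (hs true ω lt z)) K fun A hA hcl => hz ?_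
    refine M.closure_subset_closure ?_ hcl
    intro e he
    rcases mem_union.1 (hA (mem_coe.1 he)) with h | h
    · exact (hK e h).2
    · exact (mem_fs.1 h).1

/-- the sample elements -/
noncomputable def sm (ω : E → Bool) : Finset E := univ.filter fun e => ω e = false

/-- the test elements -/
noncomputable def te (ω : E → Bool) : Finset E := univ.filter fun e => ω e = true

/-- the elements which are heavier than `z` -/
noncomputable def hv (lt : E → E → Prop) (z : E) : Finset E := univ.filter fun e => lt z e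

/-- the up-set of the target `z` -/
def Dz (M : Matroid E) (lt : E → E → Prop) (z : E) (A : Finset E) : Prop :=
  z ∈ M.closure ((A ∩ hv lt z : Finset E) : Set E)

theorem Dz_mono {M : Matroid E} {lt : E → E → Prop} {z : E} {A B : Finset E} (h : A ⊆ B)
    (hA : Dz M lt z A) : Dz M lt z B :=
  M.closure_subset_closure (coe_subset.2 (inter_subset_inter h subset_rfl)) hA

theorem vio_iff {P : ParB} {M : Matroid E} {lt : E → E → Prop} {z : E} {ω : E → Bool} {j : ℕ}
    {X : Finset E} (hX : X ⊆ hv lt z) :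
    P.vio (fun A => z ∈ M.closure (A : Set E)) j (fs (hs true ω lt z)) X ↔
      P.vio (Dz M lt z) j (sm ω) X := by
  have h1 : (fs (hs true ω lt z)) = sm ω ∩ hv lt z := by
    ext e
    rw [mem_fs]
    simp [hs, sm, hv, and_comm]
  rw [h1]
  exact (vio1_inter (U := fun A : Finset E => z ∈ M.closure (A : Set E)) hX).symm

/-- the event of `b` and the target `z`, in terms of the up-set `Dz` and of the whole sample -/
def EvB (P : ParB) (M : Matroid E) (lt : E → E → Prop) (j : ℕ) (b z : E) (ω : E → Bool) : Prop :=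
  ∃ X ⊆ te ω ∩ hv lt z, b ∈ X ∧ P.bad (Dz M lt z) j (sm ω) X

theorem ev_evB {P : ParB} {M : Matroid E} {lt : E → E → Prop} {h0 : 0 ≤ P.p} {h1 : P.p ≤ 1}
    {j : ℕ} {b z : E} {ω : E → Bool} (h : (P.rule M h0 h1).Ev lt j b z ω) :
    ω z = true ∧ ¬ P.vio (Dz M lt z) 0 (sm ω) ∅ ∧ EvB P M lt j b z ω := by
  obtain ⟨-, h2, h3, X, hb, hX, h4, h5, h6⟩ := h
  have hXh : X ⊆ hv lt z := fun e he => by
    simp only [hv, mem_filter, mem_univ, true_and]
    exact (hX e he).2
  refine ⟨h2, fun h7 => h3 ((vio_iff (empty_subset _)).2 h7), X, ?_, hb,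
    (vio_iff hXh).1 h4, fun X' hX' h7 => h5 X' hX' ((vio_iff (hX'.subset.trans hXh)).2 h7),
    fun X' hX' h7 => h6 X' hX' ((vio_iff (hX'.trans hXh)).2 h7)⟩
  intro e he
  simp only [te, hv, mem_inter, mem_filter, mem_univ, true_and]
  exact hX e he

end Rule

end Vale.Agent.P331.H352
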