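import Vale.Agent.P331.H352.InstB

/-!
# The concrete rule: from the thinnings to the competitive ratio
-/

set_option autoImplicit false
set_option linter.unusedSectionVars false

namespace Vale.Agent.P331.H352

open Finset Vale.Agent.P331 Vale.Agent.P331.H819 Vale.Agent.P331.H489 Vale.Agent.P331.H250
open scoped Classical ENNReal

section

variable {E L : Type} [Fintype E] [Fintype L] [DecidableEq L]

/-- a coordinate which is not used may be conditioned -/
theorem EX_indep (z : E) (l₀ : L) (w : E → L → ℝ) (hw : ∑ l, w z l = 1) (F : (E → L) → ℝ)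
    (hF : ∀ ω l, F (Function.update ω z l) = F ω) :
    EX w (fun ω => if ω z = l₀ then F ω else 0) = w z l₀ * EX w F := by
  have h1 : EX w F = EX (Function.update w z (Pi.single l₀ 1)) F := by
    rw [EX_split z l₀ w F]
    simp only [hF]
    rw [← sum_mul, hw, one_mul]
  rw [EX_cond z l₀ l₀, h1]
  simp only [hF]

end

section

variable {E : Type} [Fintype E]

theorem te_eq (ω : E → Bool) : te ω = tset ω := rfl

theorem sm_eq (ω : E → Bool) : sm ω = univ \ tset ω := by
  ext e
  simp [sm, tset]

/-- the labels as a random set of test elements -/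
theorem EX_bwt (p : ℝ) (f : Finset E → Finset E → ℝ) :
    EX (fun _ : E => bwt p) (fun ω => f (te ω) (sm ω)) =
      TH (fun _ => p) univ fun V => f V (univ \ V) := by
  unfold TH
  refine EX_congr (fun e l => ?_) fun ω => ?_
  · unfold bwt bw
    rw [if_pos (mem_univ e)]
  · rw [te_eq, sm_eq]

theorem hv_update {lt : E → E → Prop} (hlt : IsStrictTotalOrder E lt) (z : E) :
    z ∉ hv lt z := by
  simp only [hv, mem_filter, mem_univ, true_and]
  exact irrefl_of lt z

/-- the event does not look at the label of `z` -/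
theorem evB_iff_inter {P : ParB} {M : Matroid E} {lt : E → E → Prop} {j : ℕ} {b z : E}
    {ω : E → Bool} : EvB P M lt j b z ω ↔ ∃ X ⊆ te ω ∩ hv lt z, b ∈ X ∧
      P.bad (fun A => z ∈ M.closure (A : Set E)) j (sm ω ∩ hv lt z) X := by
  have key : ∀ X ⊆ hv lt z, ∀ i, P.vio (Dz M lt z) i (sm ω) X ↔
      P.vio (fun A => z ∈ M.closure (A : Set E)) i (sm ω ∩ hv lt z) X := fun X hX i =>
    vio1_inter (U := fun A : Finset E => z ∈ M.closure (A : Set E)) hX
  unfold EvB ParB.bad
  constructor
  · rintro ⟨X, hX, hb, h1, h2, h3⟩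
    have hXh : X ⊆ hv lt z := hX.trans inter_subset_right
    exact ⟨X, hX, hb, (key X hXh j).1 h1,
      fun X' hX' h4 => h2 X' hX' ((key X' (hX'.subset.trans hXh) j).2 h4),
      fun X' hX' h4 => h3 X' hX' ((key X' (hX'.trans hXh) (j - 1)).2 h4)⟩
  · rintro ⟨X, hX, hb, h1, h2, h3⟩
    have hXh : X ⊆ hv lt z := hX.trans inter_subset_right
    exact ⟨X, hX, hb, (key X hXh j).2 h1,
      fun X' hX' h4 => h2 X' hX' ((key X' (hX'.subset.trans hXh) j).1 h4),
      fun X' hX' h4 => h3 X' hX' ((key X' (hX'.trans hXh) (j - 1)).1 h4)⟩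

theorem evB_update {P : ParB} {M : Matroid E} {lt : E → E → Prop}
    (hlt : IsStrictTotalOrder E lt) {j : ℕ} {b z : E} (ω : E → Bool) (l : Bool) :
    EvB P M lt j b z (Function.update ω z l) ↔ EvB P M lt j b z ω := by
  have hz := hv_update hlt z
  have h1 : te (Function.update ω z l) ∩ hv lt z = te ω ∩ hv lt z := by
    ext e
    simp only [te, mem_inter, mem_filter, mem_univ, true_and]
    refine and_congr_left fun he => ?_
    rw [Function.update_of_ne (fun h => hz (by rwa [h] at he))]
  have h2 : sm (Function.update ω z l) ∩ hv lt z = sm ω ∩ hv lt z := by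
    ext e
    simp only [sm, mem_inter, mem_filter, mem_univ, true_and]
    refine and_congr_left fun he => ?_
    rw [Function.update_of_ne (fun h => hz (by rwa [h] at he))]
  rw [evB_iff_inter, evB_iff_inter, h1, h2]

/-- the event with an abstract up-set, in terms of the set `V` of test elements and the set `S`
of sample elements -/
def EvV (P : ParB) (U : Finset E → Prop) (j : ℕ) (b : E) (V S : Finset E) : Prop :=
  ∃ X ⊆ V, b ∈ X ∧ P.bad U j S X

/-- indicator of the event -/
noncomputable def evI (P : ParB) (M : Matroid E) (lt : E → E → Prop) (j : ℕ) (b z : E)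
    (ω : E → Bool) : ℝ := if EvB P M lt j b z ω then 1 else 0

theorem evI_nonneg {P : ParB} {M : Matroid E} {lt : E → E → Prop} {j : ℕ} {b z : E}
    (ω : E → Bool) : 0 ≤ evI P M lt j b z ω := by
  unfold evI
  split_ifs <;> norm_num

theorem evI_update {P : ParB} {M : Matroid E} {lt : E → E → Prop}
    (hlt : IsStrictTotalOrder E lt) {j : ℕ} {b z : E} (ω : E → Bool) (l : Bool) :
    evI P M lt j b z (Function.update ω z l) = evI P M lt j b z ω := by
  unfold evI
  exact if_congr (evB_update hlt ω l) rfl rfl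

theorem evI_sum {P : ParB} (h0 : 0 ≤ P.p) (h1 : P.p ≤ 1) {M : Matroid E} {lt : E → E → Prop}
    {j : ℕ} {b z : E} :
    EX (fun _ : E => bwt P.p) (evI P M lt j b z) ≤
      TH (fun _ => P.p) univ fun V => if EvV P (Dz M lt z) j b V (univ \ V) then 1 else 0 := by
  have h3 := EX_bwt (E := E) P.p
    fun V S => if EvV P (Dz M lt z) j b V S then (1 : ℝ) else 0
  refine le_trans ?_ h3.le
  refine EX_mono (fun _ l => bwt_nonneg h0 h1 l) fun ω => ?_
  unfold evI
  by_cases h : EvB P M lt j b z ω
  · rw [if_pos h]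
    obtain ⟨X, hX, h3⟩ := h
    rw [if_pos ⟨X, hX.trans inter_subset_left, h3⟩]
  · rw [if_neg h]
    split_ifs <;> norm_num

theorem ev_le {P : ParB} {M : Matroid E} {lt : E → E → Prop} (hlt : IsStrictTotalOrder E lt)
    (h0 : 0 ≤ P.p) (h1 : P.p ≤ 1) {j : ℕ} {b z : E} :
    EX (fun _ : E => (P.rule M h0 h1).w)
      (fun ω : E → Bool => if (P.rule M h0 h1).Ev lt j b z ω then 1 else 0) ≤
    P.p * TH (fun _ => P.p) univ
      fun V => if EvV P (Dz M lt z) j b V (univ \ V) then 1 else 0 := by
  have h2 : bwt P.p true = P.p := by simp [bwt]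
  have s2 := EX_indep z true (fun _ : E => bwt P.p) (bwt_sum P.p) (evI P M lt j b z)
    (evI_update hlt)
  rw [h2] at s2
  refine le_trans (le_trans ?_ s2.le) (mul_le_mul_of_nonneg_left (evI_sum h0 h1) h0)
  refine EX_mono (fun _ l => bwt_nonneg h0 h1 l) fun ω => ?_
  by_cases h : (P.rule M h0 h1).Ev lt j b z ω
  · obtain ⟨h3, -, h4⟩ := ev_evB h
    rw [if_pos h, if_pos h3]
    unfold evI
    rw [if_pos h4]
  · rw [if_neg h]
    split_ifs
    · exact evI_nonneg ω
    · exact le_rfl

/-- **Line B: the competitive rule from the sums over the random set of test elements.** -/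
theorem competitive_of_EvV {P : ParB} {M : Matroid E} (hM : M.E = Set.univ)
    (hP : P.Ok (Fintype.card E)) {c : ℝ}
    (h : ∀ lt : E → E → Prop, IsStrictTotalOrder E lt → ∀ b, b ∉ M.closure {f | lt b f} →
      P.p * ∑ z ∈ univ.erase b, ∑ j ∈ Icc 1 P.n, TH (fun _ => P.p) univ
        (fun V => if EvV P (Dz M lt z) j b V (univ \ V) then 1 else 0) ≤ P.p - c) :
    ((P.rule M hP.p0 hP.p1).frame.data M).rule.IsCompetitive (ENNReal.ofReal c) := by
  refine competitive_of_vio hM (fun lt _ => rule_ok hP lt) fun lt hlt b hb => ?_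
  have hv : (P.rule M hP.p0 hP.p1).w (P.rule M hP.p0 hP.p1).v = P.p := by
    show bwt P.p true = P.p
    simp [bwt]
  rw [hv]
  refine le_trans ?_ (h lt hlt b hb)
  rw [mul_sum]
  refine sum_le_sum fun z _ => ?_
  rw [mul_sum]
  exact sum_le_sum fun j _ => ev_le hlt hP.p0 hP.p1

end

end Vale.Agent.P331.H352
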