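import Vale.Agent.P331.H352.RowsB

/-!
# Line B: the row `RowBl`
-/

set_option autoImplicit false
set_option linter.unusedSectionVars false

namespace Vale.Agent.P331.H352B

open Finset Vale.Agent.P331 Vale.Agent.P331.H489 Vale.Agent.P331.H250
open Vale.Agent.P331.H352 (Vios Frame Blame hs hv te sm TH_inter EX_indep te_eq sm_eq hv_update
  blame_vio bwt bwt_nonneg bwt_sum EX_bwt)
open scoped Classical ENNReal

noncomputable section

variable {E : Type} [Fintype E]

theorem DD_eq (M : Matroid E) (lt : E → E → Prop) (z : E) :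
    F.DD M lt z = fun A => (fun A : Finset E => z ∈ M.closure (A : Set E)) (A ∩ hv lt z) := by
  funext A
  unfold F.DD
  congr 2
  ext e
  simp only [Set.mem_setOf_eq, coe_inter, Set.mem_inter_iff, mem_coe, hv, mem_filter, mem_univ,
    true_and]
  exact and_comm

theorem fs_hs (lt : E → E → Prop) (z : E) (ω : E → Bool) :
    F.fs (hs true ω lt z) = sm ω ∩ hv lt z := by
  ext e
  rw [mem_fs]
  simp [hs, sm, hv, and_comm]

theorem vio_iff {M : Matroid E} {g t : ℝ} {l : F.Lv} {lt : E → E → Prop} {z : E} {S X : Finset E}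
    (hX : X ⊆ hv lt z) :
    F.vio g t l (fun A => z ∈ M.closure (A : Set E)) (S ∩ hv lt z) X ↔
      F.vio g t l (F.DD M lt z) S X := by
  rw [DD_eq]
  exact (vio_inter (U := fun A : Finset E => z ∈ M.closure (A : Set E)) hX).symm

theorem bad_iff {M : Matroid E} {g t : ℝ} {B j : ℕ} {lt : E → E → Prop} {z : E} {S X : Finset E}
    (hX : X ⊆ hv lt z) :
    F.Bad g t B j (fun A => z ∈ M.closure (A : Set E)) (S ∩ hv lt z) X ↔
      F.Bad g t B j (F.DD M lt z) S X := by
  unfold F.Bad
  refine and_congr (vio_iff hX) (and_congr ?_ ?_)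
  · exact forall_congr' fun X' => forall_congr' fun h => not_congr (vio_iff (h.subset.trans hX))
  · exact forall_congr' fun X' => forall_congr' fun h => not_congr (vio_iff (h.trans hX))

/-- the event of the abstract analysis -/
def EvS (g t : ℝ) (B j : ℕ) (D : Finset E → Prop) (b : E) (V S : Finset E) : Prop :=
  ∃ X ⊆ V, b ∈ X ∧ F.Bad g t B j D S X

/-- indicator of the event, seen from the heavier elements -/
def evI (M : Matroid E) (g t : ℝ) (B j : ℕ) (lt : E → E → Prop) (b z : E) (ω : E → Bool) : ℝ :=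
  F.ind (EvS g t B j (fun A => z ∈ M.closure (A : Set E)) b (te ω ∩ hv lt z) (sm ω ∩ hv lt z))

theorem evI_update {M : Matroid E} {g t : ℝ} {B j : ℕ} {lt : E → E → Prop}
    (hlt : IsStrictTotalOrder E lt) {b z : E} (ω : E → Bool) (l : Bool) :
    evI M g t B j lt b z (Function.update ω z l) = evI M g t B j lt b z ω := by
  have hz := hv_update hlt z
  have h1 : te (Function.update ω z l) ∩ hv lt z = te ω ∩ hv lt z := by
    ext e
    simp only [te, mem_inter, mem_filter, mem_univ, true_and]
    refine and_congr_left fun he => ?_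
    rw [Function.update_of_ne (fun h => hz (by rwa [h] at he))]
  have h2 : sm (Function.update ω z l) ∩ hv lt z = sm ω ∩ hv lt z := by
    ext e
    simp only [sm, mem_inter, mem_filter, mem_univ, true_and]
    refine and_congr_left fun he => ?_
    rw [Function.update_of_ne (fun h => hz (by rwa [h] at he))]
  unfold evI
  rw [h1, h2]

theorem evI_le {M : Matroid E} {g t : ℝ} {B j : ℕ} {lt : E → E → Prop} {b z : E} (ω : E → Bool) :
    evI M g t B j lt b z ω ≤ F.ind (EvS g t B j (F.DD M lt z) b (te ω) (sm ω)) := by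
  refine ind_mono ?_
  rintro ⟨X, hX, hb, h⟩
  exact ⟨X, hX.trans inter_subset_left, hb, (bad_iff (hX.trans inter_subset_right)).1 h⟩

theorem EX_evI {M : Matroid E} {p g t : ℝ} (hp0 : 0 ≤ p) (hp1 : p ≤ 1) {B j : ℕ}
    {lt : E → E → Prop} {b z : E} :
    EX (fun _ : E => bwt p) (evI M g t B j lt b z) ≤
      F.Th p univ fun V => F.ind (∃ X ⊆ V, b ∈ X ∧ F.Bad g t B j (F.DD M lt z) (univ \ V) X) := by
  have h3 := EX_bwt (E := E) p fun V S => F.ind (EvS g t B j (F.DD M lt z) b V S)
  refine le_trans ?_ h3.le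
  exact EX_mono (fun _ l => bwt_nonneg hp0 hp1 l) fun ω => evI_le ω

/-- **A7b** -/
theorem rowBl : F.RowBl := by
  intro E _ M _ p g n lam B hp0 hp1 _ lt hlt b z _
  have hw : (fun _ : E => (F.frame E M p g n B hp0 hp1).w) = fun _ : E => bwt p := rfl
  rw [hw, mul_sum]
  have h2 : bwt p true = p := by simp [bwt]
  have s3 : ∀ j ∈ Icc 1 (Fintype.card E),
      EX (fun _ : E => bwt p) (fun ω => if ω z = true then
        evI M g (n / (1 - g)) B j lt b z ω else 0) ≤
      p * F.Th p univ (fun V => F.ind (∃ X ⊆ V, b ∈ X ∧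
        F.Bad g (n / (1 - g)) B j (F.DD M lt z) (univ \ V) X)) := by
    intro j _
    have s2 := EX_indep z true (fun _ : E => bwt p) (bwt_sum p)
      (evI M g (n / (1 - g)) B j lt b z) (evI_update hlt)
    rw [h2] at s2
    exact s2.le.trans (mul_le_mul_of_nonneg_left (EX_evI hp0 hp1) hp0)
  refine le_trans ?_ (sum_le_sum s3)
  rw [← EX_sum]
  refine EX_mono (fun _ l => bwt_nonneg hp0 hp1 l) fun ω => ?_
  have h0 : ∀ j ∈ Icc 1 (Fintype.card E), (0 : ℝ) ≤ if ω z = true then
      evI M g (n / (1 - g)) B j lt b z ω else 0 := by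
    intro j _
    split_ifs
    · exact ind_nonneg _
    · exact le_rfl
  by_cases hb : Blame (F.frame E M p g n B hp0 hp1) lt b z ω
  · rw [if_pos hb]
    obtain ⟨j, hj, -, h5, -, X, h6, h7, h8⟩ :=
      blame_vio (D := vios M p g n B hp0 hp1) hb
    refine le_trans ?_ (single_le_sum h0 hj)
    have h5' : ω z = true := h5
    rw [if_pos h5']
    have h9 : EvS g (n / (1 - g)) B j (fun A => z ∈ M.closure (A : Set E)) b (te ω ∩ hv lt z)
        (sm ω ∩ hv lt z) := by
      refine ⟨X, ?_, h6, ?_⟩
      · intro e he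
        simp only [te, hv, mem_inter, mem_filter, mem_univ, true_and]
        exact h7 e he
      · rw [← fs_hs]
        exact h8
    exact (ind_true h9).ge
  · rw [if_neg hb]
    exact sum_nonneg h0

end

end Vale.Agent.P331.H352B
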