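import Vale.Agent.P331.F.Rows
import Vale.Agent.P331.H352.InstB2

/-!
# Line B: the rows `RowOk` and `RowBl`
-/

set_option autoImplicit false
set_option linter.unusedSectionVars false

namespace Vale.Agent.P331.H352B

open Finset Vale.Agent.P331 Vale.Agent.P331.H489 Vale.Agent.P331.H250
open Vale.Agent.P331.H352 (Vios Frame Blame hs hv te sm TH_inter EX_indep te_eq sm_eq hv_update
  blame_vio)
open scoped Classical ENNReal

noncomputable section

variable {E : Type} [Fintype E]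

theorem ind_true {P : Prop} (h : P) : F.ind P = 1 := if_pos h

theorem ind_false {P : Prop} (h : ¬ P) : F.ind P = 0 := if_neg h

theorem ind_nonneg (P : Prop) : 0 ≤ F.ind P := by
  unfold F.ind
  split_ifs <;> norm_num

theorem ind_mono {P Q : Prop} (h : P → Q) : F.ind P ≤ F.ind Q := by
  unfold F.ind
  split_ifs with h1 h2
  · exact le_rfl
  · exact absurd (h h1) h2
  · norm_num
  · exact le_rfl

theorem ind_congr {P Q : Prop} (h : P ↔ Q) : F.ind P = F.ind Q := by rw [propext h]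

theorem Th_congr {t : ℝ} {S : Finset E} {f g : Finset E → ℝ} (h : ∀ N, N ⊆ S → f N = g N) :
    F.Th t S f = F.Th t S g := TH_congr (fun _ _ => rfl) h

theorem Th_const (t : ℝ) (S : Finset E) (c : ℝ) : F.Th t S (fun _ => c) = c := TH_const _ S c

/-! ## the numbers of a level -/

theorem xx_gt (B j : ℕ) (hB : 16 ≤ B) : 200 ^ j < F.xx B j := by
  unfold F.xx
  exact Nat.lt_pow_self (by omega)

theorem lev_zero (B : ℕ) : (F.lev B 0).κ = 0 := rfl

theorem lev_κ (B j : ℕ) : j ≤ (F.lev B j).κ := by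
  show j ≤ 200 ^ j - 1
  have h : j < 200 ^ j := Nat.lt_pow_self (by norm_num)
  omega

theorem lev_Z (B j : ℕ) (hB : 16 ≤ B) : j ≤ (F.lev B j).Z := by
  show j ≤ F.xx B j ^ 161
  have h : j < 200 ^ j := Nat.lt_pow_self (by norm_num)
  have h1 := xx_gt B j hB
  exact (by omega : j ≤ F.xx B j).trans (Nat.le_self_pow (by norm_num) _)

theorem xx_one (B j : ℕ) (hB : 16 ≤ B) : (1 : ℝ) < (F.xx B j : ℝ) := by
  have h1 := xx_gt B j hB
  have h2 : 1 ≤ 200 ^ j := Nat.one_le_pow _ _ (by norm_num)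
  exact_mod_cast (by omega : 1 < F.xx B j)

theorem lev_τ0 (B j : ℕ) (hB : 16 ≤ B) : 0 ≤ (F.lev B j).τ :=
  inv_nonneg.2 (by linarith [xx_one B j hB])

theorem lev_τ1 (B j : ℕ) (hB : 16 ≤ B) : (F.lev B j).τ < 1 :=
  inv_lt_one_of_one_lt₀ (xx_one B j hB)

theorem lev_δ0 (B j : ℕ) (hB : 16 ≤ B) : 0 ≤ (F.lev B j).δ := by
  have := xx_one B j hB
  show 0 ≤ ((F.xx B j : ℝ) ^ 20)⁻¹
  positivity

theorem lev_δ1 (B j : ℕ) (hB : 16 ≤ B) : (F.lev B j).δ < 1 :=
  inv_lt_one_of_one_lt₀ (one_lt_pow₀ (xx_one B j hB) (by norm_num))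

/-! ## top, zero, free -/

theorem vio_top {g t : ℝ} {l : F.Lv} {D : Finset E → Prop} (hD : F.Up D)
    (hδ : 0 ≤ l.δ) (hτ : 0 ≤ l.τ) (hk : Fintype.card E ≤ l.κ) (hZ : Fintype.card E ≤ l.Z)
    {S X : Finset E} (hX : D X) : F.vio g t l D S X := by
  refine ⟨(card_le_univ X).trans hZ, ?_⟩
  have h1 : F.ff g t l D S X = 0 := by
    unfold F.ff
    rw [Th_congr (g := fun _ => (0 : ℝ)) fun G _ => ?_, Th_const]
    refine ind_false (not_not.2 ⟨X, subset_rfl, (card_le_univ X).trans hk, ?_⟩)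
    rw [Th_congr (g := fun _ => (0 : ℝ)) fun N _ => ?_, Th_const]
    · positivity
    · exact ind_false (not_not.2 (hD X _ (subset_union_left.trans subset_union_left) hX))
  rw [h1]
  positivity

theorem vio_zero {g t : ℝ} {l : F.Lv} {D : Finset E → Prop} (hκ : l.κ = 0) (hτ : 0 ≤ l.τ)
    {S X : Finset E} (h : F.vio g t l D S X) : F.vio g t l D S ∅ := by
  refine ⟨by simp, ?_⟩
  have h1 : F.ff g t l D S ∅ = F.ff g t l D S X := by
    unfold F.ff
    refine Th_congr fun G _ => ind_congr (not_congr ⟨?_, ?_⟩)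
    · rintro ⟨Y, hY, h2⟩
      exact ⟨Y, hY.trans (empty_subset X), h2⟩
    · rintro ⟨Y, hY, h2⟩
      refine ⟨Y, ?_, h2⟩
      have h3 := h2.1
      rw [hκ] at h3
      rw [card_eq_zero.1 (Nat.le_zero.1 h3)]
  rw [h1]
  refine h.2.trans ?_
  rw [card_empty]
  have h2 : (0 : ℝ) ≤ (X.card : ℝ) := Nat.cast_nonneg _
  rw [div_le_div_iff₀ (by positivity) (by norm_num)]
  push_cast
  nlinarith

theorem vio_free {g t : ℝ} {l : F.Lv} {D : Finset E → Prop} (hδ0 : 0 ≤ l.δ) (hδ : l.δ < 1)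
    (hτ0 : 0 ≤ l.τ) (hτ : l.τ < 1) {S X : Finset E} (h : ∀ A ⊆ X ∪ S, ¬ D A) :
    ¬ F.vio g t l D S X := by
  rintro ⟨-, h1⟩
  have h2 : F.ff g t l D S X = 1 := by
    unfold F.ff
    rw [Th_congr (g := fun _ => (1 : ℝ)) fun G hG => ?_, Th_const]
    refine ind_true ?_
    rintro ⟨Y, hY, -, h3⟩
    rw [Th_congr (g := fun _ => (1 : ℝ)) fun N hN => ?_, Th_const] at h3
    · have h4 : (0 : ℝ) ≤ (Y.card : ℝ) := Nat.cast_nonneg _
      have h5 : l.δ / (Y.card + 1) ≤ l.δ := div_le_self hδ0 (by linarith)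
      linarith
    · refine ind_true (h _ ?_)
      intro e he
      rw [mem_union, mem_union] at he
      rw [mem_union]
      rcases he with (he | he) | he
      · exact Or.inl (hY he)
      · exact Or.inr (hG he)
      · exact Or.inr (sdiff_subset (hN he))
  rw [h2] at h1
  have h4 : (0 : ℝ) ≤ (X.card : ℝ) := Nat.cast_nonneg _
  have h5 : l.τ / (X.card + 1) ≤ l.τ := div_le_self hτ0 (by linarith)
  linarith

/-! ## restriction -/

theorem good_inter {t : ℝ} {l : F.Lv} {U : Finset E → Prop} {S G Y Q : Finset E} (hY : Y ⊆ Q) :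
    F.good t l (fun A => U (A ∩ Q)) S G Y ↔ F.good t l U (S ∩ Q) (G ∩ Q) Y := by
  unfold F.good F.Th
  have h1 : (S \ G) ∩ Q = (S ∩ Q) \ (G ∩ Q) := by
    ext e
    simp only [mem_inter, mem_sdiff]
    tauto
  rw [← h1, ← TH_inter]
  have h2 : ∀ N : Finset E, (Y ∪ G ∪ N) ∩ Q = Y ∪ (G ∩ Q) ∪ (N ∩ Q) := by
    intro N
    rw [union_inter_distrib_right, union_inter_distrib_right, inter_eq_left.2 hY]
  simp only [h2]

theorem ff_inter {g t : ℝ} {l : F.Lv} {U : Finset E → Prop} {S X Q : Finset E} (hX : X ⊆ Q) :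
    F.ff g t l (fun A => U (A ∩ Q)) S X = F.ff g t l U (S ∩ Q) X := by
  unfold F.ff
  have h1 : F.Th g (S ∩ Q) (fun G => F.ind (¬ ∃ Y ⊆ X, F.good t l U (S ∩ Q) G Y)) =
      F.Th g S (fun G => F.ind (¬ ∃ Y ⊆ X, F.good t l U (S ∩ Q) (G ∩ Q) Y)) :=
    (TH_inter (fun _ => g) S Q fun G => F.ind (¬ ∃ Y ⊆ X, F.good t l U (S ∩ Q) G Y)).symm
  rw [h1]
  refine Th_congr fun G _ => ind_congr (not_congr ⟨?_, ?_⟩)
  · rintro ⟨Y, hY, h⟩
    exact ⟨Y, hY, (good_inter (hY.trans hX)).1 h⟩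
  · rintro ⟨Y, hY, h⟩
    exact ⟨Y, hY, (good_inter (hY.trans hX)).2 h⟩

theorem vio_inter {g t : ℝ} {l : F.Lv} {U : Finset E → Prop} {S X Q : Finset E} (hX : X ⊆ Q) :
    F.vio g t l (fun A => U (A ∩ Q)) S X ↔ F.vio g t l U (S ∩ Q) X := by
  unfold F.vio
  rw [ff_inter hX]

/-! ## The rule -/

/-- the rule as a `Vios` -/
def vios (M : Matroid E) (p g n : ℝ) (B : ℕ) (hp0 : 0 ≤ p) (hp1 : p ≤ 1) : Vios E Bool where
  w := (F.frame E M p g n B hp0 hp1).w
  w0 := (F.frame E M p g n B hp0 hp1).w0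
  w1 := (F.frame E M p g n B hp0 hp1).w1
  v := true
  n := Fintype.card E
  vio := fun j _ z H X => F.vio g (n / (1 - g)) (F.lev B j) (fun A => z ∈ M.closure (A : Set E))
    (F.fs H) X

theorem vios_frame (M : Matroid E) (p g n : ℝ) (B : ℕ) (hp0 : 0 ≤ p) (hp1 : p ≤ 1) :
    (vios M p g n B hp0 hp1).frame = F.frame E M p g n B hp0 hp1 := rfl

theorem mem_fs {H : Set E} {e : E} : e ∈ F.fs H ↔ e ∈ H := by simp [F.fs]

theorem up_cl (M : Matroid E) (z : E) : F.Up fun A : Finset E => z ∈ M.closure (A : Set E) :=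
  fun _ _ hAB hA => M.closure_subset_closure (coe_subset.2 hAB) hA

theorem vios_ok (M : Matroid E) (p g n : ℝ) (B : ℕ) (hB : 16 ≤ B) (hp0 : 0 ≤ p) (hp1 : p ≤ 1)
    (lt : E → E → Prop) : (vios M p g n B hp0 hp1).Ok M lt where
  top := fun ω z K _ hcl => vio_top (up_cl M z) (lev_δ0 B _ hB) (lev_τ0 B _ hB)
    (lev_κ B (Fintype.card E)) (lev_Z B (Fintype.card E) hB) hcl
  zero := fun ω z K _ h => vio_zero (lev_zero B) (lev_τ0 B 0 hB) h
  free := by
    intro j ω z hz K hK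
    refine vio_free (lev_δ0 B j hB) (lev_δ1 B j hB) (lev_τ0 B j hB) (lev_τ1 B j hB)
      fun A hA hcl => hz ?_
    refine M.closure_subset_closure ?_ hcl
    intro e he
    rcases mem_union.1 (hA (mem_coe.1 he)) with h | h
    · exact (hK e h).2
    · exact (mem_fs.1 h).1

/-- **A7a** -/
theorem rowOk : F.RowOk := by
  intro E _ M _ p g n lam B hp0 hp1 hC lt _
  have h := (vios_ok M p g n B hC.B16 hp0 hp1 lt).frame
  rw [vios_frame] at h
  exact h

end

end Vale.Agent.P331.H352B
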