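import Vale.Agent.P331.H352.Det

/-!
# The deterministic rule of the constant ratio

`vio j ω z H X` : the set `X` of heavier test elements violates the target `z` at the level `j`
(a function of the labels, of the set `H` of the heavier sample elements and of `X`).
`X` is bad for `z` at the level `j ≥ 1` if it is a minimal violating set of the level `j` and no
subset of it violates `z` at the level `j - 1`.  The target is rejected if the empty set violates it
at the level `0`.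
-/

set_option autoImplicit false
set_option linter.unusedSectionVars false

namespace Vale.Agent.P331.H352

open Finset Vale.Agent.P331 Vale.Agent.P331.H819 Vale.Agent.P331.H489
open scoped Classical ENNReal

section

variable {E L : Type} [Fintype E] [Fintype L] [DecidableEq L]

/-- Data of the rule. -/
structure Vios (E L : Type) [Fintype E] [Fintype L] where
  w : L → ℝ
  w0 : ∀ l, 0 ≤ w l
  w1 : ∑ l, w l = 1
  v : L
  n : ℕ
  vio : ℕ → (E → L) → E → Set E → Finset E → Prop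

variable (D : Vios E L) (M : Matroid E)

/-- `Bad_j (z, X)` -/
def Vios.bad (j : ℕ) (ω : E → L) (z : E) (H : Set E) (X : Finset E) : Prop :=
  D.vio j ω z H X ∧ (∀ X' ⊂ X, ¬ D.vio j ω z H X') ∧ ∀ X' ⊆ X, ¬ D.vio (j - 1) ω z H X'

/-- the frame -/
def Vios.frame : Frame E L where
  w := D.w
  w0 := D.w0
  w1 := D.w1
  v := D.v
  adm := fun ω z H => ¬ D.vio 0 ω z H ∅
  forb := fun ω z H K => ∃ j, 1 ≤ j ∧ j ≤ D.n ∧ D.bad j ω z H K

/-- the event: `b` is a test element and lies in a set of test elements which is bad at the level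
`j` for the accepted test element `z` -/
def Vios.Ev (lt : E → E → Prop) (j : ℕ) (b z : E) (ω : E → L) : Prop :=
  ω b = D.v ∧ ω z = D.v ∧ ¬ D.vio 0 ω z (hs D.v ω lt z) ∅ ∧ ∃ X : Finset E, b ∈ X ∧
    (∀ e ∈ X, ω e = D.v ∧ lt z e) ∧ D.bad j ω z (hs D.v ω lt z) X

/-- hypotheses on the violations -/
structure Vios.Ok (lt : E → E → Prop) : Prop where
  top : ∀ (ω : E → L) (z : E) (K : Finset E), (∀ e ∈ K, ω e = D.v ∧ lt z e) →
    z ∈ M.closure (K : Set E) → D.vio D.n ω z (hs D.v ω lt z) K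
  zero : ∀ (ω : E → L) (z : E) (K : Finset E), (∀ e ∈ K, ω e = D.v ∧ lt z e) →
    D.vio 0 ω z (hs D.v ω lt z) K → D.vio 0 ω z (hs D.v ω lt z) ∅
  free : ∀ (j : ℕ) (ω : E → L) (z : E), z ∉ M.closure {e | lt z e} → ∀ K : Finset E,
    (∀ e ∈ K, ω e = D.v ∧ lt z e) → ¬ D.vio j ω z (hs D.v ω lt z) K

variable {D M}

/-- descent along minimal violating sets -/
theorem vio_descend {lt : E → E → Prop} (h : D.Ok M lt) {ω : E → L} {z : E} :
    ∀ j ≤ D.n, ∀ X : Finset E, (∀ e ∈ X, ω e = D.v ∧ lt z e) →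
      D.vio j ω z (hs D.v ω lt z) X →
      (∀ K' ⊆ X, ∀ i, 1 ≤ i → i ≤ D.n → ¬ D.bad i ω z (hs D.v ω lt z) K') →
      D.vio 0 ω z (hs D.v ω lt z) ∅
  | 0, _, X, hX, hB, _ => h.zero ω z X hX hB
  | j + 1, hj, X, hX, hB, hbad => by
    obtain ⟨X₁, hX₁, h1, h2⟩ := exists_min (P := D.vio (j + 1) ω z (hs D.v ω lt z)) X hB
    have h3 := hbad X₁ hX₁ (j + 1) (by omega) hj
    obtain ⟨X₂, hX₂, h4⟩ : ∃ X₂ ⊆ X₁, D.vio j ω z (hs D.v ω lt z) X₂ := by
      by_contra hno
      push Not at hno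
      exact h3 ⟨h1, h2, by simpa using hno⟩
    exact vio_descend h j (by omega) X₂ (fun e he => hX e (hX₁ (hX₂ he))) h4
      fun K' hK' => hbad K' (hK'.trans (hX₂.trans hX₁))

theorem Vios.Ok.frame {lt : E → E → Prop} (h : D.Ok M lt) : D.frame.Ok M lt where
  cap := by
    intro ω z K hadm hK hcl
    by_contra hno
    push Not at hno
    refine hadm (vio_descend h D.n le_rfl K hK (h.top ω z K hK hcl) fun K' hK' i hi hin hbad => ?_)
    exact hno K' hK' ⟨i, hi, hin, hbad⟩
  free := by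
    intro ω z hz
    refine ⟨h.free 0 ω z hz ∅ (fun e he => absurd he (notMem_empty e)), fun K hK => ?_⟩
    rintro ⟨j, -, -, hbad⟩
    exact h.free j ω z hz K hK hbad.1

theorem blame_vio {lt : E → E → Prop} {b z : E} {ω : E → L} (hb : Blame D.frame lt b z ω) :
    ∃ j ∈ Icc 1 D.n, D.Ev lt j b z ω := by
  obtain ⟨h1, h2, h3, K, h4, h5, ⟨j, hj, hjn, hbad⟩, -⟩ := hb
  exact ⟨j, mem_Icc.2 ⟨hj, hjn⟩, h1, h2, h3, K, h4, h5, hbad⟩

/-- an unsafe element of the greedy basis lies in a bad set -/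
theorem unsafe_vio (hM : M.E = Set.univ) {lt : E → E → Prop} (hlt : IsStrictTotalOrder E lt)
    (hD : D.Ok M lt) {b : E} (hb : b ∉ M.closure {f | lt b f}) {ω : E → L} (hbT : ω b = D.v)
    (hn : ¬ (D.frame.data M).Safe ω lt b) :
    ∃ z ∈ univ.erase b, ∃ j ∈ Icc 1 D.n, D.Ev lt j b z ω := by
  obtain ⟨z, hz, h⟩ := unsafe_blame hM hlt hD.frame hb hbT hn
  exact ⟨z, hz, blame_vio h⟩

/-- **The competitive rule from the events `Ev_j (b, z)`.** -/
theorem competitive_of_vio (hM : M.E = Set.univ)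
    (hD : ∀ lt : E → E → Prop, IsStrictTotalOrder E lt → D.Ok M lt) {c : ℝ}
    (h : ∀ lt : E → E → Prop, IsStrictTotalOrder E lt → ∀ b, b ∉ M.closure {f | lt b f} →
      ∑ z ∈ univ.erase b, ∑ j ∈ Icc 1 D.n, EX (fun _ => D.w)
        (fun ω : E → L => if D.Ev lt j b z ω then 1 else 0) ≤ D.w D.v - c) :
    (D.frame.data M).rule.IsCompetitive (ENNReal.ofReal c) := by
  refine competitive_of_blame hM (fun lt hlt => (hD lt hlt).frame) fun lt hlt b hb => ?_
  refine le_trans (sum_le_sum fun z _ => ?_) (h lt hlt b hb)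
  rw [← EX_sum]
  refine EX_mono (fun _ l => D.w0 l) fun ω => ?_
  by_cases hbl : Blame D.frame lt b z ω
  · rw [if_pos hbl]
    obtain ⟨j, hj, h1⟩ := blame_vio hbl
    have h3 := single_le_sum (f := fun j => if D.Ev lt j b z ω then (1 : ℝ) else 0)
      (fun _ _ => ind0) hj
    rwa [if_pos h1] at h3
  · rw [if_neg hbl]
    exact sum_nonneg fun _ _ => ind0

end

end Vale.Agent.P331.H352
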